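import Vale.Agent.P246.R2.H429.Defs3
import Vale.Agent.P246.R2.H429.SF

/-! # P246: wedges with two-spheres -/

namespace Vale.Agent.P246.R2.H555

open Vale.Agent.P246 Vale.Agent.P246.H429 CategoryTheory

variable {G : Type} [Group G]

/-- the complex `wedge C t` as a chain complex -/
noncomputable abbrev wc (C : Cx (ZG G)) (t : ℕ) : ChainComplex (ModuleCat.{0} (ZG G)) ℕ :=
  wedge C t

theorem wedge_d (C : Cx (ZG G)) (t i : ℕ)
    (x : C.X (i + 1) × (Fin (if i + 1 = 2 then t else 0) → ZG G)) :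
    ((wc C t).d (i + 1) i).hom x = ((C.d i).hom x.1, 0) := by
  have h : (wc C t).d (i + 1) i = ModuleCat.ofHom (((C.d i).hom).prodMap
      (0 : (Fin (if i + 1 = 2 then t else 0) → ZG G) →ₗ[ZG G]
        (Fin (if i = 2 then t else 0) → ZG G))) :=
    ChainComplex.of_d
      (fun i => ModuleCat.of (ZG G) (C.X i × (Fin (if i = 2 then t else 0) → ZG G)))
      (fun i => ModuleCat.ofHom ((C.d i).hom.prodMap 0)) i
  exact congrArg (fun f => (ModuleCat.Hom.hom f) x) h

theorem sub_ne {i t : ℕ} (h : i ≠ 2) (a b : Fin (if i = 2 then t else 0) → ZG G) : a = b := by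
  funext j
  exact absurd (lt_of_lt_of_eq j.2 (if_neg h)) (Nat.not_lt_zero _)

theorem ex_iff (C : Cx (ZG G)) (t i : ℕ) (hi : i + 1 ≠ 2) (h : C.Acyclic (i + 1)) :
    (wedge C t).Acyclic (i + 1) := by
  refine (exactAt_succ_iff (wc C t) i).2 ?_
  intro x hx
  have hx' := (wedge_d C t i x).symm.trans hx
  obtain ⟨y, hy⟩ := (exactAt_succ_iff C i).1 h x.1 (congrArg Prod.fst hx')
  refine ⟨(y, 0), ?_⟩
  have h2 := wedge_d C t (i + 1) (y, 0)
  refine h2.trans ?_
  exact Prod.ext hy (sub_ne hi _ _)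

theorem w_data (C : Cx (ZG G)) (t : ℕ) (h : IsD2Complex C) : D2Data G (wc C t) := by
  have hC := IsD2Complex.data C h
  refine ⟨?_, ?_, ?_, ?_, ?_, ?_, ?_⟩
  · intro i
    have : Module.Free (ZG G) (C.X i) := hC.free i
    change Module.Free (ZG G) (C.X i × (Fin (if i = 2 then t else 0) → ZG G))
    infer_instance
  · intro i
    have : Module.Finite (ZG G) (C.X i) := hC.finite i
    change Module.Finite (ZG G) (C.X i × (Fin (if i = 2 then t else 0) → ZG G))
    infer_instance
  · obtain ⟨N, hN⟩ := hC.bounded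
    refine ⟨max N 2, fun i hi => ?_⟩
    have : Subsingleton (C.X i) := hN i (lt_of_le_of_lt (le_max_left _ _) hi)
    have h2 : i ≠ 2 := by
      have := lt_of_le_of_lt (le_max_right N 2) hi
      omega
    have : Subsingleton (Fin (if i = 2 then t else 0) → ZG G) := ⟨sub_ne h2⟩
    change Subsingleton (C.X i × (Fin (if i = 2 then t else 0) → ZG G))
    infer_instance
  · obtain ⟨ε, h1, h2, h3⟩ := hC.homology_zero
    refine ⟨ε.comp (AddMonoidHom.fst (C.X 0) (Fin (if 0 = 2 then t else 0) → ZG G)), ?_, ?_, ?_⟩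
    · intro z
      obtain ⟨x, hx⟩ := h1 z
      exact ⟨(x, 0), hx⟩
    · intro g x
      exact h2 g x.1
    · intro x
      refine (h3 x.1).trans ⟨?_, ?_⟩
      · rintro ⟨y, hy⟩
        refine ⟨(y, 0), ?_⟩
        refine (wedge_d C t 0 (y, 0)).trans ?_
        exact Prod.ext hy (sub_ne (by omega) _ _)
      · rintro ⟨y, hy⟩
        refine ⟨y.1, ?_⟩
        have h4 := (wedge_d C t 0 y).symm.trans hy
        exact congrArg Prod.fst h4
  · exact ex_iff C t 0 (by omega) hC.homology_one
  · intro i hi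
    obtain ⟨j, rfl⟩ : ∃ j, i = j + 1 := ⟨i - 1, by omega⟩
    exact ex_iff C t j (by omega) (hC.homology_high (j + 1) hi)
  · intro M _ _ _ φ hφ
    let φ' : (C.X 3 × (Fin (if 3 = 2 then t else 0) → ZG G)) →ₗ[ZG G] M := φ
    obtain ⟨ψ, hψ⟩ := hC.cohomology_three M (φ'.comp (LinearMap.inl (ZG G) _ _)) (fun x =>
      (congrArg φ' (wedge_d C t 3 (x, 0))).symm.trans (hφ (x, 0)))
    refine ⟨ψ.comp (LinearMap.fst (ZG G) (C.X 2) (Fin (if 2 = 2 then t else 0) → ZG G)), ?_⟩
    intro x
    have h6 := wedge_d C t 2 x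
    have h8 : φ' x = φ' (x.1, 0) := congrArg φ' (Prod.ext rfl (sub_ne (by omega) _ _))
    have h9 := hψ x.1
    refine h8.trans (h9.trans ?_)
    exact congrArg (fun z : C.X 2 × (Fin (if 2 = 2 then t else 0) → ZG G) => ψ z.1) h6.symm

theorem w_euler (C : Cx (ZG G)) (t : ℕ) (n : ℤ) (h : HasEuler C n) :
    HasEuler (wedge C t) (n + t) := by
  obtain ⟨c, N, h1, h2, h3⟩ := h
  refine ⟨fun i => c i + (if i = 2 then t else 0), max N 3, ?_, ?_, ?_⟩
  · intro i
    obtain ⟨e⟩ := h1 i
    exact ⟨(LinearEquiv.prodCongr e (LinearEquiv.refl (ZG G) _)).trans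
      (addEquiv (ZG G) (c i) (if i = 2 then t else 0)).symm⟩
  · intro i hi
    have := le_trans (le_max_left N 3) hi
    have h5 := le_trans (le_max_right N 3) hi
    simp only [h2 i this, zero_add]
    rw [if_neg (by omega)]
  · push_cast
    simp only [mul_add, Finset.sum_add_distrib]
    congr 1
    · rw [h3]
      apply Finset.sum_subset
      · intro i hi
        rw [Finset.mem_range] at hi ⊢
        exact lt_of_lt_of_le hi (le_max_left _ _)
      · intro i _ hi
        rw [Finset.mem_range, not_lt] at hi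
        rw [h2 i hi]
        simp
    · rw [Finset.sum_eq_single 2]
      · simp
      · intro i _ hi
        simp [hi]
      · intro hi
        exact absurd (Finset.mem_range.2 (lt_of_lt_of_le (by norm_num) (le_max_right N 3))) hi

/-- ROW W -/
theorem specW : SpecW := fun _ _ C t n h h' => ⟨(w_data C t h).isD2, w_euler C t n h'⟩

end Vale.Agent.P246.R2.H555
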